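import Vale.Agent.P032.H617.WZ.Cnf
import Vale.Agent.P032.H617.WZ.D0
import Vale.Agent.P032.H617.WZ.D1
import Vale.Agent.P032.H617.WZ.D2
import Vale.Agent.P032.H617.WZ.D3
import Vale.Agent.P032.H617.WZ.D4
import Vale.Agent.P032.H617.WZ.D5
import Vale.Agent.P032.H617.WZ.D6
import Vale.Agent.P032.H617.WZ.D7
import Vale.Agent.P032.H617.WZ.D8
import Vale.Agent.P032.H617.WZ.D9
import Vale.Agent.P032.H617.WZ.D10
import Vale.Agent.P032.H617.WZ.D11
import Vale.Agent.P032.H617.WZ.D12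
import Vale.Agent.P032.H617.WZ.D13
import Vale.Agent.P032.H617.WZ.D14
import Vale.Agent.P032.H617.WZ.D15

namespace Vale.Agent.P032.H617.WZ
open Vale.Agent.P032.H859.Rup

def e3_0 : Tr := .n d0 d8

def e3_1 : Tr := .n d1 d9

def e3_2 : Tr := .n d2 d10

def e3_3 : Tr := .n d3 d11

def e3_4 : Tr := .n d4 d12

def e3_5 : Tr := .n d5 d13

def e3_6 : Tr := .n d6 d14

def e3_7 : Tr := .n d7 d15

def e2_0 : Tr := .n e3_0 e3_4

def e2_1 : Tr := .n e3_1 e3_5

def e2_2 : Tr := .n e3_2 e3_6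

def e2_3 : Tr := .n e3_3 e3_7

def e1_0 : Tr := .n e2_0 e2_2

def e1_1 : Tr := .n e2_1 e2_3

def e0_0 : Tr := .n e1_0 e1_1

/-- the learned clauses -/
def db : Tr := e0_0

/-- the mask of the positive literals -/
def E : Nat := mkE 7682

theorem hE : Even' E := even_mkE _

noncomputable def L : Nat → Nat := look (getC cnfT) 11759 e0_0

end Vale.Agent.P032.H617.WZ
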