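import Vale.Agent.P032.H184.Kill
import Vale.Agent.P032.H617.WZ.Base
import Vale.Agent.P032.H617.WZ.TabD

namespace Vale.Agent.P032.H617.WZ
open Vale.Agent.P032.H859.Rup Vale.Agent.P032.H184

theorem ok1 : chkk db tabs1 = true := by decide +kernel

end Vale.Agent.P032.H617.WZ
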